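import Vale.Agent.Lib.P235.Grid

open Vale.Agent.Lib.P235

/-- Substitution into monotone two-terminal networks preserves monotone cut families with an
additive loss of two, independently of the number of pieces and of the depth of the recursion. -/
theorem Vale.Agent.Results.P235.MonotoneSubst.result :
    (∀ (R : Net) (S : Blocks R) (D₀ D : ℝ), R.Good D₀ → (∀ e, (S.B e).Good D) → D₀ + 2 ≤ D →
      S.sub.Good D ∧ S.sub.EmbedsL1 D) ∧
    (∀ (F : Net → Prop) (D : ℝ), (∀ N, F N → N.Good D) →
      ∀ N, Closure F N → N.Good (D + 2) ∧ N.EmbedsL1 (D + 2)) ∧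
    (∀ N, Closure IsGrid N → N.EmbedsL1 3) := by
  refine ⟨?_, ?_, ?_⟩
  · intro R S D₀ D hR hB hD
    have h := good_sub S hR hB hD
    exact ⟨h, h.embedsL1⟩
  · intro F D hF N hN
    have h := good_closure hF hN
    exact ⟨h, h.embedsL1⟩
  · intro N hN
    exact grid_closure_embeds hN
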